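import Mathlib

/-!
# P161: definitions (free Ising measure in broadcast form, factors of IID, rooted products)

Spins are Booleans: `true` is `+1` and `false` is `-1`.
-/

namespace Vale.Agent.Lib.P161

open MeasureTheory ProbabilityTheory

/-- The law of i.i.d. Uniform[0,1] labels on the vertices. -/
noncomputable def iidLaw (V : Type*) : Measure (V → unitInterval) :=
  Measure.infinitePi (fun _ => (volume : Measure unitInterval))

/-- The action of a graph automorphism on fields: `(g x)_v = x_{g⁻¹ v}`. -/
def act {V X : Type*} {G : SimpleGraph V} (g : G ≃g G) (x : V → X) : V → X :=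
  fun v => x (g.symm v)

/-- `ν` is a factor of IID on the graph `G`: it is the law of `Φ U`, `U` i.i.d. uniform labels,
`Φ` measurable, and `Φ (g U) = g (Φ U)` almost surely for each automorphism `g` of `G`. -/
def IsFIID {V : Type*} (G : SimpleGraph V) (ν : Measure (V → Bool)) : Prop :=
  ∃ Φ : (V → unitInterval) → (V → Bool), Measurable Φ ∧
    (∀ g : G ≃g G, ∀ᵐ U ∂(iidLaw V), Φ (act g U) = act g (Φ U)) ∧ ν = (iidLaw V).map Φ

open Classical in
/-- The observables of the broadcast construction started at `o`: the spin at `o` (index `none`)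
and, for every edge `e`, the indicator that the two end points of `e` have equal spins. -/
noncomputable def obs {V : Type*} (G : SimpleGraph V) (o : V) :
    Option G.edgeSet → (V → Bool) → Bool
  | none, σ => σ o
  | some e, σ => decide (∀ u ∈ e.1, ∀ v ∈ e.1, σ u = σ v)

/-- `μ` is the free zero-field Ising measure with parameter `θ = tanh β` on `G` (broadcast form):
for every starting vertex `o`, the spin at `o` is uniform, every edge has equal spins at its two
ends with probability `(1 + θ) / 2`, and the spin at `o` and the agreement indicators of all the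
edges are mutually independent. -/
def IsFreeIsing {V : Type*} (G : SimpleGraph V) (θ : ℝ) (μ : Measure (V → Bool)) : Prop :=
  IsProbabilityMeasure μ ∧ ∀ o : V, iIndepFun (obs G o) μ ∧
    μ {σ | obs G o none σ = true} = ENNReal.ofReal (1 / 2) ∧
    ∀ e : G.edgeSet, μ {σ | obs G o (some e) σ = true} = ENNReal.ofReal ((1 + θ) / 2)

/-- The rooted product of `H` with the rooted graph `(F, f0)`: a copy of `F` is attached by its
root `f0` to every vertex of `H`. -/
def rootedProd {W F : Type*} (H : SimpleGraph W) (K : SimpleGraph F) (f0 : F) :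
    SimpleGraph (W × F) where
  Adj p q := (p.2 = f0 ∧ q.2 = f0 ∧ H.Adj p.1 q.1) ∨ (p.1 = q.1 ∧ K.Adj p.2 q.2)
  symm := ⟨by
    rintro p q (⟨h1, h2, h3⟩ | ⟨h1, h2⟩)
    · exact Or.inl ⟨h2, h1, h3.symm⟩
    · exact Or.inr ⟨h1.symm, h2.symm⟩⟩
  loopless := ⟨by
    rintro p (⟨_, _, h3⟩ | ⟨_, h2⟩)
    · exact H.loopless.irrefl _ h3
    · exact K.loopless.irrefl _ h2⟩

/-- `G` is a `d`-regular tree. -/
def IsRegTree {V : Type*} (d : ℕ) (G : SimpleGraph V) : Prop :=
  G.IsTree ∧ ∀ v, (G.neighborSet v).encard = d

/-- The free Ising measure with parameter `θ` on `G` exists and is a factor of IID. -/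
def FreeIsingIsFIID {V : Type*} (G : SimpleGraph V) (θ : ℝ) : Prop :=
  ∃ μ : Measure (V → Bool), IsFreeIsing G θ μ ∧ IsFIID G μ

end Vale.Agent.Lib.P161
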