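import Vale.Agent.Lib.P161.Mul.Main
import Vale.Agent.Lib.P161.TP.Acyc
import Vale.Agent.Lib.P161.TP.Conn
import Vale.Agent.Lib.P161.TP.Deg
import Vale.Agent.Lib.P161.WT.Acyc
import Vale.Agent.Lib.P161.WT.Conn
import Vale.Agent.Lib.P161.WT.Deg

/-!
# P161: assembly
-/

namespace Vale.Agent.Lib.P161

open MeasureTheory ProbabilityTheory

theorem wordTree_isRegTree (d : ℕ) (hd : 1 ≤ d) : IsRegTree d (wordTree d (d - 1)) := by
  refine ⟨⟨wordTree_connected _ _, wordTree_isAcyclic _ _⟩, fun v => ?_⟩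
  by_cases hv : v = Word.root d (d - 1)
  · rw [hv, encard_neighborSet_wordRoot]
  · rw [encard_neighborSet_word _ _ v hv]
    have : d - 1 + 1 = d := by omega
    exact_mod_cast congrArg (fun n : ℕ => (n : ℕ∞)) this

theorem rootedProd_isRegTree {W : Type*} {H : SimpleGraph W} {d' d : ℕ} (h1 : 1 ≤ d)
    (hdd : d' ≤ d) (hH : IsRegTree d' H) :
    IsRegTree d (rootedProd H (wordTree (d - d') (d - 1)) (Word.root (d - d') (d - 1))) := by
  refine ⟨⟨rootedProd_connected hH.1.1 (wordTree_connected _ _),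
    rootedProd_isAcyclic hH.1.2 (wordTree_isAcyclic _ _)⟩, ?_⟩
  rintro ⟨w, f⟩
  by_cases hf : f = Word.root (d - d') (d - 1)
  · rw [hf, encard_neighborSet_root, hH.2 w, encard_neighborSet_wordRoot]
    have : d' + (d - d') = d := by omega
    exact_mod_cast congrArg (fun n : ℕ => (n : ℕ∞)) this
  · rw [encard_neighborSet_ne w hf, encard_neighborSet_word _ _ f hf]
    have : d - 1 + 1 = d := by omega
    exact_mod_cast congrArg (fun n : ℕ => (n : ℕ∞)) this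

theorem freeIsingIsFIID_of_rootedProd {W F : Type*} [Countable F] {H : SimpleGraph W}
    {K : SimpleGraph F} {f0 : F} {θ : ℝ} (h : FreeIsingIsFIID (rootedProd H K f0) θ) :
    FreeIsingIsFIID H θ := by
  obtain ⟨μ, h1, h2⟩ := h
  exact ⟨μ.map (res f0), isFreeIsing_res h1, isFIID_res h2⟩

theorem freeIsingIsFIID_mul {V : Type*} {G : SimpleGraph V} {θ₁ θ₂ : ℝ} (h0₁ : 0 ≤ θ₁)
    (h1₁ : θ₁ ≤ 1) (h0₂ : 0 ≤ θ₂) (h1₂ : θ₂ ≤ 1) (h₁ : FreeIsingIsFIID G θ₁)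
    (h₂ : FreeIsingIsFIID G θ₂) : FreeIsingIsFIID G (θ₁ * θ₂) := by
  obtain ⟨μ₁, a₁, b₁⟩ := h₁
  obtain ⟨μ₂, a₂, b₂⟩ := h₂
  exact ⟨_, isFreeIsing_mul h0₁ h1₁ h0₂ h1₂ a₁ a₂, isFIID_mul b₁ b₂⟩

end Vale.Agent.Lib.P161
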