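import Vale.Agent.Lib.P161.Defs

/-!
# P161: factors of IID pass from a rooted product to its base graph
-/

namespace Vale.Agent.Lib.P161

open MeasureTheory ProbabilityTheory

section Split

variable {F : Type*}

instance (V : Type*) : IsProbabilityMeasure (iidLaw V) := by
  unfold iidLaw; infer_instance

/-- Splitting a uniform label into a family of independent uniform labels. -/
theorem exists_split [Countable F] : ∃ τ : unitInterval → (F → unitInterval), Measurable τ ∧
    (volume : Measure unitInterval).map τ = iidLaw F :=
  Measure.exists_measurable_map_eq (iidLaw F)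

/-- Splitting all labels with a given splitting map. -/
def spl {W : Type*} (τ : unitInterval → (F → unitInterval)) (U : W → unitInterval) :
    W × F → unitInterval :=
  fun p => τ (U p.1) p.2

theorem measurable_spl {W : Type*} {τ : unitInterval → (F → unitInterval)} (hτ : Measurable τ) :
    Measurable (spl (W := W) τ) := by
  rw [measurable_pi_iff]
  intro p
  exact (measurable_pi_apply p.2).comp (hτ.comp (measurable_pi_apply p.1))

theorem map_spl {W : Type*} {τ : unitInterval → (F → unitInterval)} (hτ : Measurable τ)
    (hmap : (volume : Measure unitInterval).map τ = iidLaw F) :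
    (iidLaw W).map (spl τ) = iidLaw (W × F) := by
  have h1 : (iidLaw W).map (fun U v => τ (U v)) = Measure.infinitePi (fun _ : W => iidLaw F) := by
    have := Measure.infinitePi_map_pi (fun _ : W => (volume : Measure unitInterval))
      (f := fun _ => τ) (fun _ => hτ)
    simp only [hmap] at this
    exact this
  have h2 := Measure.infinitePi_map_curry_symm
    (fun (_ : W) (_ : F) => (volume : Measure unitInterval))
  have h3 : (spl (W := W) τ) =
      (MeasurableEquiv.curry W F unitInterval).symm ∘ (fun U v => τ (U v)) := by
    funext U p
    rfl
  rw [h3, ← Measure.map_map (MeasurableEquiv.measurable _) (by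
    rw [measurable_pi_iff]; intro v; exact hτ.comp (measurable_pi_apply v)), h1]
  exact h2

end Split

section Lift

variable {W F : Type*} {H : SimpleGraph W} {K : SimpleGraph F} {f0 : F}

/-- An automorphism of `H` acts on the rooted product by moving the attached copies. -/
def liftAut (g : H ≃g H) : rootedProd H K f0 ≃g rootedProd H K f0 where
  toFun p := (g p.1, p.2)
  invFun p := (g.symm p.1, p.2)
  left_inv p := by simp
  right_inv p := by simp
  map_rel_iff' := by
    intro p q
    simp only [rootedProd, Equiv.coe_fn_mk, g.map_adj_iff, EmbeddingLike.apply_eq_iff_eq]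

theorem spl_act (τ : unitInterval → (F → unitInterval)) (g : H ≃g H) (U : W → unitInterval) :
    spl τ (act g U) = act (liftAut (K := K) (f0 := f0) g) (spl τ U) := rfl

/-- Restriction of a field on the rooted product to the base graph. -/
def res (f0 : F) {X : Type*} (σ : W × F → X) : W → X := fun w => σ (w, f0)

theorem measurable_res : Measurable (res (W := W) f0 (X := Bool)) := by
  rw [measurable_pi_iff]
  intro w
  exact measurable_pi_apply _

/-- The edge of the rooted product lying over an edge of the base graph. -/
def liftEdge (e : H.edgeSet) : (rootedProd H K f0).edgeSet :=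
  ⟨Sym2.map (fun w => (w, f0)) e.1, by
    obtain ⟨e, he⟩ := e
    induction e using Sym2.ind with
    | _ u v =>
      simp only [Sym2.map_mk, SimpleGraph.mem_edgeSet] at he ⊢
      exact Or.inl ⟨rfl, rfl, he⟩⟩

theorem liftEdge_injective : Function.Injective (liftEdge (H := H) (K := K) (f0 := f0)) := by
  intro e e' h
  have h' := congrArg Subtype.val h
  simp only [liftEdge] at h'
  apply Subtype.ext
  exact Sym2.map.injective (fun a b hab => (Prod.ext_iff.1 hab).1) h'

theorem obs_res (o : W) (i : Option H.edgeSet) (σ : W × F → Bool) :
    obs H o i (res f0 σ) =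
      obs (rootedProd H K f0) (o, f0) (i.map (liftEdge (K := K) (f0 := f0))) σ := by
  cases i with
  | none => rfl
  | some e =>
    obtain ⟨e, he⟩ := e
    induction e using Sym2.ind with
    | _ u v =>
      simp only [obs, Option.map_some, liftEdge, res, Sym2.map_mk, Sym2.mem_iff,
        forall_eq_or_imp, forall_eq]

end Lift

section Main

variable {W F : Type*} {H : SimpleGraph W} {K : SimpleGraph F} {f0 : F}

theorem measurable_obs {V : Type*} (G : SimpleGraph V) (o : V) (i : Option G.edgeSet) :
    Measurable (obs G o i) := by
  cases i with
  | none => exact measurable_pi_apply o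
  | some e =>
    obtain ⟨e, he⟩ := e
    induction e using Sym2.ind with
    | _ u v =>
      have : obs G o (some ⟨s(u, v), he⟩) = fun σ => decide (σ u = σ v) := by
        funext σ
        simp only [obs, Sym2.mem_iff, forall_eq_or_imp, forall_eq]
        congr 1
        apply propext
        constructor
        · intro h; exact h.1.2
        · intro h; exact ⟨⟨trivial, h⟩, ⟨h.symm, trivial⟩⟩
      rw [this]
      have h1 : Measurable (fun p : Bool × Bool => decide (p.1 = p.2)) :=
        measurable_of_countable _
      have h2 : Measurable (fun σ : V → Bool => (σ u, σ v)) :=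
        (measurable_pi_apply u).prodMk (measurable_pi_apply v)
      exact h1.comp h2

/-- The restriction to the base graph of the free Ising measure of a rooted product is the free
Ising measure of the base graph. -/
theorem isFreeIsing_res {θ : ℝ} {μ : Measure (W × F → Bool)}
    (hμ : IsFreeIsing (rootedProd H K f0) θ μ) : IsFreeIsing H θ (μ.map (res f0)) := by
  obtain ⟨hp, h⟩ := hμ
  refine ⟨Measure.isProbabilityMeasure_map measurable_res.aemeasurable, fun o => ?_⟩
  obtain ⟨hind, hroot, hedge⟩ := h (o, f0)
  have hpre : ∀ (i : Option H.edgeSet) (s : Set Bool),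
      (res f0) ⁻¹' (obs H o i ⁻¹' s) =
        obs (rootedProd H K f0) (o, f0) (i.map (liftEdge (K := K) (f0 := f0))) ⁻¹' s := by
    intro i s
    ext σ
    simp only [Set.mem_preimage, obs_res (K := K)]
  have hinj : Function.Injective (Option.map (liftEdge (H := H) (K := K) (f0 := f0))) :=
    Option.map_injective liftEdge_injective
  refine ⟨?_, ?_, ?_⟩
  · rw [iIndepFun_iff_measure_inter_preimage_eq_mul]
    intro S sets _
    have h1 := (iIndepFun_iff_measure_inter_preimage_eq_mul.1 (hind.precomp hinj)) S
      (sets := sets) (fun i _ => MeasurableSet.of_discrete)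
    have hm : MeasurableSet (⋂ i ∈ S, obs H o i ⁻¹' sets i) :=
      Finset.measurableSet_biInter S
        (fun i _ => measurable_obs H o i MeasurableSet.of_discrete)
    rw [Measure.map_apply measurable_res hm]
    simp only [Set.preimage_iInter, hpre]
    rw [h1]
    refine Finset.prod_congr rfl (fun i _ => ?_)
    rw [Measure.map_apply measurable_res (measurable_obs H o i MeasurableSet.of_discrete), hpre]
  · have := hpre none {true}
    rw [show {σ | obs H o none σ = true} = obs H o none ⁻¹' {true} from rfl,
      Measure.map_apply measurable_res (measurable_obs H o none MeasurableSet.of_discrete), this]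
    exact hroot
  · intro e
    have := hpre (some e) {true}
    rw [show {σ | obs H o (some e) σ = true} = obs H o (some e) ⁻¹' {true} from rfl,
      Measure.map_apply measurable_res (measurable_obs H o _ MeasurableSet.of_discrete), this]
    exact hedge _

/-- A factor of IID on a rooted product restricts to a factor of IID on the base graph. -/
theorem isFIID_res [Countable F] {μ : Measure (W × F → Bool)}
    (hμ : IsFIID (rootedProd H K f0) μ) : IsFIID H (μ.map (res f0)) := by
  obtain ⟨Φ, hΦ, heq, rfl⟩ := hμ
  obtain ⟨τ, hτ, hmap⟩ := exists_split (F := F)
  refine ⟨fun U => res f0 (Φ (spl τ U)), measurable_res.comp (hΦ.comp (measurable_spl hτ)),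
    fun g => ?_, ?_⟩
  · have h1 := heq (liftAut g)
    rw [← map_spl hτ hmap] at h1
    have h2 := ae_of_ae_map (measurable_spl hτ).aemeasurable h1
    filter_upwards [h2] with U hU
    rw [spl_act (K := K) (f0 := f0), hU]
    rfl
  · rw [← map_spl hτ hmap, Measure.map_map hΦ (measurable_spl hτ),
      Measure.map_map measurable_res (hΦ.comp (measurable_spl hτ))]
    rfl

end Main

end Vale.Agent.Lib.P161
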