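import Vale.Agent.Lib.P161.Defs

/-!
# P161: rooted trees of words: the root has `r` children, every other vertex has `b` children
-/

namespace Vale.Agent.Lib.P161

/-- Admissible words (the head of the list is the newest letter): the letter next to the root is
`< r`, all the other letters are `< b`. -/
def Good (r b : ℕ) : List ℕ → Prop
  | [] => True
  | [a] => a < r
  | a :: c :: l => a < b ∧ Good r b (c :: l)

/-- The vertices of the tree of words. -/
def Word (r b : ℕ) : Type := {l : List ℕ // Good r b l}

instance (r b : ℕ) : Countable (Word r b) := by unfold Word; infer_instance

/-- The root (empty word). -/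
def Word.root (r b : ℕ) : Word r b := ⟨[], trivial⟩

/-- The tree of words: `l` is joined to `a :: l`. -/
def wordTree (r b : ℕ) : SimpleGraph (Word r b) :=
  SimpleGraph.fromRel (fun x y => ∃ a, y.1 = a :: x.1)

end Vale.Agent.Lib.P161
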